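import Vale.Agent.P064.Tree

/-!
Construction of a spread tree from orbit size bounds, for a finite group action.
-/

namespace Vale.Agent.P064

open Finset Pointwise

variable {X : Type*} [Fintype X] [DecidableEq X] {Γ : Type*} [Group Γ] [Fintype Γ]
  [MulAction Γ X]

/-- the number of translates of `B` containing `S` -/
def cnt (Γ : Type*) [Group Γ] [Fintype Γ] [MulAction Γ X] (B S : Finset X) : ℕ :=
  (univ.filter fun g : Γ => S ⊆ g • B).card

omit [Fintype X] in
theorem cnt_smul (B S : Finset X) (h : Γ) : cnt Γ B (h • S) = cnt Γ B S := by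
  unfold cnt
  refine Finset.card_bij (fun g _ => h⁻¹ * g) (fun g hg => ?_) (fun g _ g' _ e => ?_)
    (fun g hg => ⟨h * g, ?_, by simp⟩)
  · simp only [mem_filter, mem_univ, true_and] at hg ⊢
    rw [mul_smul]
    exact Finset.smul_finset_subset_iff.1 hg
  · simpa using e
  · simp only [mem_filter, mem_univ, true_and] at hg ⊢
    rw [mul_smul]
    exact Finset.smul_finset_subset_smul_finset hg

omit [Fintype X] in
theorem cnt_le (q : ℝ) (hq : 0 ≤ q) (B S : Finset X)
    (hB : ∀ S' ⊆ B, ∀ T : Finset X, ((univ.filter fun g : Γ => g • S' = T).card : ℝ)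
      ≤ 2 * q ^ S'.card * Fintype.card Γ) :
    (cnt Γ B S : ℝ) ≤ 2 ^ B.card * (2 * q ^ S.card * Fintype.card Γ) := by
  classical
  have h1 : (univ.filter fun g : Γ => S ⊆ g • B)
      ⊆ B.powerset.biUnion fun S' => univ.filter fun g : Γ => g • S' = S := by
    intro g hg
    simp only [mem_filter, mem_univ, true_and, mem_biUnion, mem_powerset] at hg ⊢
    exact ⟨g⁻¹ • S, Finset.subset_smul_finset_iff.1 hg, by simp⟩
  have h2 : (cnt Γ B S : ℝ)
      ≤ ∑ S' ∈ B.powerset, ((univ.filter fun g : Γ => g • S' = S).card : ℝ) := by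
    exact_mod_cast (card_le_card h1).trans card_biUnion_le
  refine h2.trans ?_
  have h3 : ∀ S' ∈ B.powerset, ((univ.filter fun g : Γ => g • S' = S).card : ℝ)
      ≤ 2 * q ^ S.card * Fintype.card Γ := by
    intro S' hS'
    by_cases h : S'.card = S.card
    · rw [← h]; exact hB S' (mem_powerset.1 hS') S
    · have : (univ.filter fun g : Γ => g • S' = S) = ∅ := by
        rw [filter_eq_empty_iff]
        intro g _ e
        apply h
        rw [← e, Finset.card_smul_finset]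
      rw [this]
      simp only [card_empty, Nat.cast_zero]
      positivity
  refine (Finset.sum_le_sum h3).trans (le_of_eq ?_)
  rw [Finset.sum_const, card_powerset, nsmul_eq_mul]
  simp

theorem exists_link (q : ℝ) (hq : 0 < q) (B : Finset X)
    (hB : ∀ S' ⊆ B, ∀ T : Finset X, ((univ.filter fun g : Γ => g • S' = T).card : ℝ)
      ≤ 2 * q ^ S'.card * Fintype.card Γ) :
    ∃ S ⊆ B, 16 * S.card ≤ B.card ∧ 0 < cnt Γ B S ∧ ∀ S' : Finset X,
      (cnt Γ B S' : ℝ) * (2 ^ 18 * q) ^ S.card ≤ cnt Γ B S * (2 ^ 18 * q) ^ S'.card := by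
  set σ : ℝ := 2 ^ 18 * q with hσ
  have hσ0 : 0 < σ := by positivity
  obtain ⟨S0, -, hS0⟩ := Finset.exists_max_image (univ : Finset (Finset X))
    (fun S => (cnt Γ B S : ℝ) / σ ^ S.card) univ_nonempty
  have hΓ : (0 : ℝ) < Fintype.card Γ := by exact_mod_cast Fintype.card_pos
  have h0 : (Fintype.card Γ : ℝ) * σ ^ S0.card ≤ cnt Γ B S0 := by
    have := hS0 ∅ (mem_univ _)
    simp only [cnt, empty_subset, filter_true, card_univ, card_empty, pow_zero, div_one] at this
    rwa [le_div_iff₀ (by positivity)] at this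
  have hpos : 0 < cnt Γ B S0 := by
    have : (0 : ℝ) < cnt Γ B S0 := lt_of_lt_of_le (by positivity) h0
    exact_mod_cast this
  obtain ⟨g, hg⟩ := card_pos.1 hpos
  have hg' : S0 ⊆ g • B := (mem_filter.1 hg).2
  have e1 : cnt Γ B (g⁻¹ • S0) = cnt Γ B S0 := cnt_smul B S0 g⁻¹
  have e2 : (g⁻¹ • S0).card = S0.card := Finset.card_smul_finset _ _
  refine ⟨g⁻¹ • S0, Finset.subset_smul_finset_iff.1 hg', ?_, e1 ▸ hpos, fun S' => ?_⟩
  · rw [e2]
    by_contra hc
    push Not at hc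
    have h1 := h0.trans (cnt_le q hq.le B S0 hB)
    have h2 : (2 : ℝ) ^ B.card ≤ 2 ^ (16 * S0.card) := pow_le_pow_right₀ (by norm_num) hc.le
    have h3 : σ ^ S0.card = 2 ^ (16 * S0.card) * 4 ^ S0.card * q ^ S0.card := by
      rw [hσ, pow_mul, ← mul_pow, ← mul_pow]; norm_num
    have h4 : (4 : ℝ) ^ 1 ≤ 4 ^ S0.card := pow_le_pow_right₀ (by norm_num) (by omega)
    have h5 : (0 : ℝ) < q ^ S0.card * Fintype.card Γ := by positivity
    have h6 : (0 : ℝ) < 2 ^ (16 * S0.card) := by positivity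
    rw [h3] at h1
    have h7 : (2 : ℝ) ^ B.card * (2 * q ^ S0.card * Fintype.card Γ)
        ≤ 2 ^ (16 * S0.card) * (2 * (q ^ S0.card * Fintype.card Γ)) := by nlinarith
    have h8 : (2 : ℝ) ^ (16 * S0.card) * (4 * (q ^ S0.card * Fintype.card Γ))
        ≤ Fintype.card Γ * (2 ^ (16 * S0.card) * 4 ^ S0.card * q ^ S0.card) := by
      have := mul_le_mul_of_nonneg_left h4 (mul_pos h6 h5).le
      nlinarith
    nlinarith [mul_pos h6 h5]
  · rw [e1, e2]
    have := hS0 S' (mem_univ _)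
    rwa [div_le_div_iff₀ (by positivity) (by positivity)] at this

theorem tree_step (σ : ℝ) (hσ : 0 < σ) (k i : ℕ) (Y B S : Finset X) (F : Finset X → Prop)
    (hY : ∀ g : Γ, g • B ⊆ Y) (hc : B.card < 16 ^ (i + 1)) (hpos : 0 < cnt Γ B S)
    (hmax : ∀ S' : Finset X, (cnt Γ B S' : ℝ) * σ ^ S.card ≤ cnt Γ B S * σ ^ S'.card)
    (hT : ∀ g : Γ, Tree σ k (i + 2) (Y \ g • B) (fun U => F (g • B ∪ U))) :
    Tree σ (k + 1) (i + 1) (Y \ S) (fun U => F (S ∪ U)) := by
  classical
  have hpos' : (0 : ℝ) < cnt Γ B S := by exact_mod_cast hpos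
  have key : ∀ P : Finset X → Prop, ∀ [DecidablePred P],
      ∑ A, (if P A then (∑ g : Γ, if S ⊆ g • B ∧ g • B \ S = A then (1 : ℝ) else 0) else 0)
      = ((univ.filter fun g : Γ => S ⊆ g • B ∧ P (g • B \ S)).card : ℝ) := by
    intro P _
    have e : ∀ A, (if P A then (∑ g : Γ, if S ⊆ g • B ∧ g • B \ S = A then (1 : ℝ) else 0)
        else 0) = ∑ g : Γ, if (S ⊆ g • B ∧ P (g • B \ S)) ∧ g • B \ S = A then (1 : ℝ) else 0 := by
      intro A
      by_cases h : P A
      · rw [if_pos h]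
        refine Finset.sum_congr rfl fun g _ => ?_
        by_cases h' : g • B \ S = A
        · simp [h', h]
        · simp [h']
      · rw [if_neg h]
        symm
        refine Finset.sum_eq_zero fun g _ => if_neg ?_
        rintro ⟨⟨-, h1⟩, h2⟩
        exact h (h2 ▸ h1)
    simp only [e]
    rw [Finset.sum_comm, Finset.card_filter]
    push_cast
    refine Finset.sum_congr rfl fun g _ => ?_
    by_cases h : S ⊆ g • B ∧ P (g • B \ S)
    · simp [h]
    · simp [h]
  refine ⟨fun A => (∑ g : Γ, if S ⊆ g • B ∧ g • B \ S = A then (1 : ℝ) else 0) / cnt Γ B S,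
    fun A => ?_, ?_, fun J => ?_, fun A hA => ?_⟩
  · refine div_nonneg (Finset.sum_nonneg fun g _ => ?_) hpos'.le
    split_ifs <;> norm_num
  · rw [← Finset.sum_div]
    have := key (fun _ => True)
    simp only [if_true, and_true] at this
    rw [this]
    change mass (i + 1) ≤ (cnt Γ B S : ℝ) / cnt Γ B S
    rw [div_self hpos'.ne']
    unfold mass
    have : (0 : ℝ) ≤ (1 / 2) ^ (i + 1 + 1) := by positivity
    linarith
  · have e : ∀ A, (if J ⊆ A then
        (∑ g : Γ, if S ⊆ g • B ∧ g • B \ S = A then (1 : ℝ) else 0) / cnt Γ B S else 0)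
        = (if J ⊆ A then
        (∑ g : Γ, if S ⊆ g • B ∧ g • B \ S = A then (1 : ℝ) else 0) else 0) / cnt Γ B S := by
      intro A; split_ifs <;> simp
    simp only [e]
    rw [← Finset.sum_div, key (fun A => J ⊆ A), div_le_iff₀ hpos']
    by_cases hd : Disjoint S J
    · have h1 : (univ.filter fun g : Γ => S ⊆ g • B ∧ J ⊆ g • B \ S).card ≤ cnt Γ B (S ∪ J) := by
        refine card_le_card fun g hg => ?_
        simp only [mem_filter, mem_univ, true_and] at hg ⊢
        exact union_subset hg.1 (hg.2.trans sdiff_subset)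
      have h1' : ((univ.filter fun g : Γ => S ⊆ g • B ∧ J ⊆ g • B \ S).card : ℝ)
          ≤ cnt Γ B (S ∪ J) := by exact_mod_cast h1
      have h2 := hmax (S ∪ J)
      rw [card_union_of_disjoint hd, pow_add] at h2
      have h3 : (0 : ℝ) < σ ^ S.card := by positivity
      have h4 : (cnt Γ B (S ∪ J) : ℝ) ≤ σ ^ J.card * cnt Γ B S := by
        refine le_of_mul_le_mul_right ?_ h3
        nlinarith
      linarith
    · have : (univ.filter fun g : Γ => S ⊆ g • B ∧ J ⊆ g • B \ S) = ∅ := by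
        rw [filter_eq_empty_iff]
        rintro g _ ⟨-, h2⟩
        exact hd (Finset.disjoint_of_subset_right h2 disjoint_sdiff)
      rw [this]
      simp only [card_empty, Nat.cast_zero]
      positivity
  · have h1 : (∑ g : Γ, if S ⊆ g • B ∧ g • B \ S = A then (1 : ℝ) else 0) ≠ 0 := by
      intro h
      apply hA
      simp only [h, zero_div]
    obtain ⟨g, -, hg⟩ := Finset.exists_ne_zero_of_sum_ne_zero h1
    have h2 : S ⊆ g • B ∧ g • B \ S = A := by
      by_contra h
      exact hg (if_neg h)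
    obtain ⟨h3, rfl⟩ := h2
    refine ⟨sdiff_subset_sdiff (hY g) (Subset.refl S), ?_, ?_⟩
    · refine lt_of_le_of_lt (card_le_card sdiff_subset) ?_
      rwa [Finset.card_smul_finset]
    · refine Tree.mono σ k (i + 2) _ _ _ _ ?_ (fun U hU => ?_) (hT g)
      · intro x hx
        simp only [mem_sdiff] at hx ⊢
        exact ⟨⟨hx.1, fun h => hx.2 (h3 h)⟩, fun h => hx.2 h.1⟩
      · change F (S ∪ (g • B \ S ∪ U))
        rw [← union_assoc, union_sdiff_of_subset h3]
        exact hU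

theorem tree_chain (q : ℝ) (hq : 0 < q) (Y : Finset X) (F : Finset X → Prop) :
    ∀ (i k : ℕ) (B : Finset X), (∀ g : Γ, g • B ⊆ Y) → B.card < 16 ^ i →
    (∀ S' ⊆ B, ∀ T : Finset X, ((univ.filter fun g : Γ => g • S' = T).card : ℝ)
      ≤ 2 * q ^ S'.card * Fintype.card Γ) →
    (∀ g : Γ, Tree (2 ^ 18 * q) k (i + 1) (Y \ g • B) (fun U => F (g • B ∪ U))) →
    Tree (2 ^ 18 * q) (k + i) 1 Y F := by
  intro i
  induction i with
  | zero =>
    intro k B _ hc _ hT
    have hB : B = ∅ := card_eq_zero.1 (by omega)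
    subst hB
    exact Tree.mono _ k 1 _ _ _ _ sdiff_subset (fun U hU => by simpa using hU) (hT 1)
  | succ i ih =>
    intro k B hY hc hB hT
    obtain ⟨S, hS, h16, hpos, hmax⟩ := exists_link (Γ := Γ) q hq B hB
    rw [show k + (i + 1) = (k + 1) + i by ring]
    refine ih (k + 1) S (fun g => (Finset.smul_finset_subset_smul_finset hS).trans (hY g)) ?_
      (fun S' hS' => hB S' (hS'.trans hS)) (fun g => ?_)
    · rw [pow_succ] at hc; omega
    · refine tree_step (Γ := Γ) _ (by positivity) k i Y B (g • S) F hY hc ?_ (fun S' => ?_) hT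
      · rwa [cnt_smul]
      · rw [cnt_smul, Finset.card_smul_finset]
        exact hmax S'

open Classical in
/-- the abstract form of the theorem -/
theorem abstract_bound (q : ℝ) (hq : 0 < q) (hq1 : 2 ^ 82 * q ≤ 1) (Y B : Finset X) (k : ℕ)
    (hY : ∀ g : Γ, g • B ⊆ Y) (hc : B.card < 16 ^ k)
    (hB : ∀ S' ⊆ B, ∀ T : Finset X, ((univ.filter fun g : Γ => g • S' = T).card : ℝ)
      ≤ 2 * q ^ S'.card * Fintype.card Γ) :
    1 / 2 ≤ Ex (1 - (1 - 2 ^ 82 * q) ^ (2 * k + 1)) Y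
      (fun W => if ∃ g : Γ, g • B ⊆ W then 1 else 0) := by
  have h1 := tree_chain (Γ := Γ) q hq Y (fun W => ∃ g : Γ, g • B ⊆ W) k 0 B hY hc hB
    (fun g => ⟨g, subset_union_left⟩)
  have h2 := cover (2 ^ 18 * q) (2 ^ 82 * q) (by positivity) hq1 (by positivity)
    (le_of_eq (by ring)) Y (2 * k + 1) (0 + k) (fun W => ∃ g : Γ, g • B ⊆ W)
    (fun U V hUV ⟨g, hg⟩ => ⟨g, hg.trans hUV⟩) h1
  have e1 : (4 : ℝ) ^ (0 + k) * (1 / 2) ^ (2 * k + 1) = 1 / 2 := by
    rw [zero_add, pow_succ, pow_mul, ← mul_assoc, ← mul_pow]; norm_num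
  rw [e1] at h2
  have h3 := Ex_add (1 - (1 - 2 ^ 82 * q) ^ (2 * k + 1)) Y
    (fun W => if ∃ g : Γ, g • B ⊆ W then 1 else 0)
    (fun W => if ∃ g : Γ, g • B ⊆ W then 0 else 1)
  have h4 : Ex (1 - (1 - 2 ^ 82 * q) ^ (2 * k + 1)) Y (fun W =>
      (if ∃ g : Γ, g • B ⊆ W then 1 else 0) + (if ∃ g : Γ, g • B ⊆ W then 0 else 1)) = 1 := by
    refine Eq.trans (Ex_congr _ Y fun W _ => ?_) (Ex_const _ Y 1)
    split_ifs <;> norm_num
  rw [h4] at h3
  have h5 : Ex (1 - (1 - 2 ^ 82 * q) ^ (2 * k + 1)) Y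
      (fun W => if ∃ g : Γ, g • B ⊆ W then 0 else 1) ≤ 1 / 2 := by
    convert h2
  generalize Ex (1 - (1 - 2 ^ 82 * q) ^ (2 * k + 1)) Y
      (fun W => if ∃ g : Γ, g • B ⊆ W then 0 else 1) = a at h3 h5
  generalize Ex (1 - (1 - 2 ^ 82 * q) ^ (2 * k + 1)) Y
      (fun W => if ∃ g : Γ, g • B ⊆ W then 1 else 0) = b at h3 ⊢
  linarith

end Vale.Agent.P064
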