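import Mathlib

/-!
Definitions for P064: the binomial random graph `G(n,p)` on `Fin n`.
-/

namespace Vale.Agent.P064

/-- The probability that `G(n,p)` equals the graph `G`: `p^e(G) (1-p)^(C(n,2) - e(G))`. -/
noncomputable def gnpWeight (n : ℕ) (p : ℝ) (G : SimpleGraph (Fin n)) : ℝ :=
  p ^ G.edgeSet.ncard * (1 - p) ^ (n.choose 2 - G.edgeSet.ncard)

/-- The probability that `G(n,p)` has at least one subgraph isomorphic to `H`. -/
noncomputable def containProb {V : Type} (n : ℕ) (H : SimpleGraph V) (p : ℝ) : ℝ :=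
  ∑ G : SimpleGraph (Fin n), if 0 < G.copyCount H then gnpWeight n p G else 0

/-- The expected number of subgraphs of `G(n,p)` isomorphic to `F`. -/
noncomputable def expCount {V : Type} (n : ℕ) (F : SimpleGraph V) (p : ℝ) : ℝ :=
  ∑ G : SimpleGraph (Fin n), gnpWeight n p G * (G.copyCount F : ℝ)

end Vale.Agent.P064
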