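import Mathlib

/-!
Expectation over a binomial random subset of a finite set.
-/

namespace Vale.Agent.P064

open Finset

variable {X : Type*} [DecidableEq X]

/-- expectation of `f W` where `W` is a `p`-random subset of `Y` -/
noncomputable def Ex (p : ℝ) (Y : Finset X) (f : Finset X → ℝ) : ℝ :=
  ∑ W ∈ Y.powerset, p ^ W.card * (1 - p) ^ (Y.card - W.card) * f W

omit [DecidableEq X] in
theorem Ex_empty (p : ℝ) (f : Finset X → ℝ) : Ex p ∅ f = f ∅ := by
  simp [Ex]

theorem Ex_insert (p : ℝ) (Y : Finset X) (x : X) (hx : x ∉ Y) (f : Finset X → ℝ) :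
    Ex p (insert x Y) f = (1 - p) * Ex p Y f + p * Ex p Y (fun W => f (insert x W)) := by
  unfold Ex
  rw [Finset.sum_powerset_insert hx, Finset.mul_sum, Finset.mul_sum]
  congr 1
  · refine Finset.sum_congr rfl fun W hW => ?_
    have h := card_le_card (mem_powerset.1 hW)
    rw [card_insert_of_notMem hx, show Y.card + 1 - W.card = (Y.card - W.card) + 1 by omega,
      pow_succ]
    ring
  · refine Finset.sum_congr rfl fun W hW => ?_
    have hxW : x ∉ W := fun h => hx (mem_powerset.1 hW h)
    rw [card_insert_of_notMem hx, card_insert_of_notMem hxW,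
      show Y.card + 1 - (W.card + 1) = Y.card - W.card by omega, pow_succ]
    ring

omit [DecidableEq X] in
theorem Ex_congr (p : ℝ) (Y : Finset X) {f g : Finset X → ℝ} (h : ∀ W ⊆ Y, f W = g W) :
    Ex p Y f = Ex p Y g :=
  Finset.sum_congr rfl fun W hW => by rw [h W (mem_powerset.1 hW)]

omit [DecidableEq X] in
theorem Ex_mono {p : ℝ} (h0 : 0 ≤ p) (h1 : p ≤ 1) (Y : Finset X) {f g : Finset X → ℝ}
    (h : ∀ W ⊆ Y, f W ≤ g W) : Ex p Y f ≤ Ex p Y g :=
  Finset.sum_le_sum fun W hW => by
    have : 0 ≤ 1 - p := by linarith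
    exact mul_le_mul_of_nonneg_left (h W (mem_powerset.1 hW)) (by positivity)

theorem Ex_const (p : ℝ) (Y : Finset X) (c : ℝ) : Ex p Y (fun _ => c) = c := by
  induction Y using Finset.induction_on with
  | empty => simp [Ex_empty]
  | insert x Y hx ih => rw [Ex_insert p Y x hx, ih]; ring

omit [DecidableEq X] in
theorem Ex_add (p : ℝ) (Y : Finset X) (f g : Finset X → ℝ) :
    Ex p Y (fun W => f W + g W) = Ex p Y f + Ex p Y g := by
  unfold Ex
  rw [← Finset.sum_add_distrib]
  exact Finset.sum_congr rfl fun W _ => by ring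

omit [DecidableEq X] in
theorem Ex_mul (p : ℝ) (Y : Finset X) (c : ℝ) (f : Finset X → ℝ) :
    Ex p Y (fun W => c * f W) = c * Ex p Y f := by
  unfold Ex
  rw [Finset.mul_sum]
  exact Finset.sum_congr rfl fun W _ => by ring

omit [DecidableEq X] in
theorem Ex_sum {ι : Type*} (p : ℝ) (Y : Finset X) (s : Finset ι) (f : ι → Finset X → ℝ) :
    Ex p Y (fun W => ∑ i ∈ s, f i W) = ∑ i ∈ s, Ex p Y (f i) := by
  unfold Ex
  rw [Finset.sum_comm]
  exact Finset.sum_congr rfl fun W _ => by rw [Finset.mul_sum]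

omit [DecidableEq X] in
theorem Ex_nonneg {p : ℝ} (h0 : 0 ≤ p) (h1 : p ≤ 1) (Y : Finset X) {f : Finset X → ℝ}
    (h : ∀ W ⊆ Y, 0 ≤ f W) : 0 ≤ Ex p Y f :=
  Finset.sum_nonneg fun W hW => by
    have : 0 ≤ 1 - p := by linarith
    have := h W (mem_powerset.1 hW)
    positivity

theorem Ex_union (p : ℝ) (A B : Finset X) (hAB : Disjoint A B) (f : Finset X → ℝ) :
    Ex p (A ∪ B) f = Ex p A (fun S => Ex p B (fun R => f (S ∪ R))) := by
  induction A using Finset.induction_on generalizing f with
  | empty => simp [Ex_empty]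
  | insert x A hx ih =>
    have hxB : x ∉ B := Finset.disjoint_left.1 hAB (mem_insert_self x A)
    have hAB' : Disjoint A B := Finset.disjoint_of_subset_left (subset_insert x A) hAB
    have hx' : x ∉ A ∪ B := by simp [hx, hxB]
    rw [insert_union, Ex_insert p _ x hx', Ex_insert p _ x hx, ih hAB', ih hAB']
    simp only [insert_union]

theorem Ex_split (p : ℝ) {A Y : Finset X} (hA : A ⊆ Y) (f : Finset X → ℝ) :
    Ex p Y f = Ex p A (fun S => Ex p (Y \ A) (fun R => f (S ∪ R))) := by
  rw [← Ex_union p A (Y \ A) disjoint_sdiff, union_sdiff_of_subset hA]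

theorem Ex_top (p : ℝ) (A : Finset X) (c : ℝ) :
    Ex p A (fun S => if A ⊆ S then c else 0) = p ^ A.card * c := by
  unfold Ex
  rw [Finset.sum_eq_single A]
  · simp
  · intro S hS hne
    have : ¬ A ⊆ S := fun h => hne (Subset.antisymm (mem_powerset.1 hS) h)
    simp [this]
  · intro h
    exact absurd (mem_powerset_self A) h

/-- change of measure for a planted set -/
theorem Ex_plant {p : ℝ} (hp : 0 < p) {A Y : Finset X} (hA : A ⊆ Y) (g : Finset X → ℝ) :
    Ex p Y (fun W => g (W ∪ A)) = Ex p Y (fun Z => if A ⊆ Z then g Z / p ^ A.card else 0) := by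
  rw [Ex_split p hA, Ex_split p hA]
  have h1 : Ex p A (fun S => Ex p (Y \ A) (fun R => g (S ∪ R ∪ A)))
      = Ex p (Y \ A) (fun R => g (A ∪ R)) := by
    rw [← Ex_const p A (Ex p (Y \ A) (fun R => g (A ∪ R)))]
    refine Ex_congr p A fun S hS => Ex_congr p _ fun R _ => ?_
    congr 1
    ext x
    simp only [mem_union]
    constructor
    · rintro ((h | h) | h)
      · exact Or.inl (hS h)
      · exact Or.inr h
      · exact Or.inl h
    · rintro (h | h)
      · exact Or.inr h
      · exact Or.inl (Or.inr h)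
  have h2 : Ex p A (fun S => Ex p (Y \ A)
        (fun R => if A ⊆ S ∪ R then g (S ∪ R) / p ^ A.card else 0))
      = Ex p A (fun S => if A ⊆ S then
          (1 / p ^ A.card) * Ex p (Y \ A) (fun R => g (A ∪ R)) else 0) := by
    refine Ex_congr p A fun S hS => ?_
    by_cases h : A ⊆ S
    · have hSA : S = A := Subset.antisymm hS h
      subst hSA
      rw [if_pos h, ← Ex_mul]
      refine Ex_congr p _ fun R _ => ?_
      rw [if_pos subset_union_left]
      ring
    · rw [if_neg h]
      refine Eq.trans (Ex_congr p _ fun R hR => ?_) (Ex_const p (Y \ A) 0)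
      rw [if_neg]
      intro h'
      apply h
      intro x hx
      rcases mem_union.1 (h' hx) with h'' | h''
      · exact h''
      · exact absurd hx (mem_sdiff.1 (hR h'')).2
  rw [h1, h2, Ex_top]
  have : p ^ A.card ≠ 0 := by positivity
  field_simp

/-- union of two independent random sets -/
theorem Ex_two (p q : ℝ) (Y : Finset X) (f : Finset X → ℝ) :
    Ex p Y (fun W => Ex q Y (fun V => f (W ∪ V))) = Ex (p + q - p * q) Y f := by
  induction Y using Finset.induction_on generalizing f with
  | empty => simp [Ex_empty]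
  | insert x Y hx ih =>
    rw [Ex_insert _ _ x hx, Ex_insert _ _ x hx, ← ih, ← ih]
    simp only [Ex_insert _ _ x hx, Ex_add, Ex_mul, union_insert, insert_union, insert_idem]
    ring

omit [DecidableEq X] in
theorem Ex_zero (Y : Finset X) (f : Finset X → ℝ) : Ex 0 Y f = f ∅ := by
  unfold Ex
  rw [Finset.sum_eq_single ∅]
  · simp
  · intro S _ hne
    have : S.card ≠ 0 := fun h => hne (card_eq_zero.1 h)
    simp [this]
  · intro h
    exact absurd (empty_mem_powerset Y) h

/-- the weighted sum over the missing part of a fixed set -/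
theorem Ex_miss {p s : ℝ} (hp : 0 < p) (hp1 : p ≤ 1) (hs : 0 ≤ s) (A : Finset X) (c : ℕ)
    (r : ℝ) (hr : s ≤ r * p) (hr0 : 0 ≤ r) (hr1 : r ≤ 1) :
    Ex p A (fun S => if c ≤ (A \ S).card then s ^ (A \ S).card / p ^ A.card else 0)
      ≤ 2 ^ A.card * r ^ c := by
  unfold Ex
  have h : ∀ S ∈ A.powerset, p ^ S.card * (1 - p) ^ (A.card - S.card) *
      (if c ≤ (A \ S).card then s ^ (A \ S).card / p ^ A.card else 0) ≤ r ^ c := by
    intro S hS
    have hSA := mem_powerset.1 hS
    have hc : (A \ S).card = A.card - S.card := card_sdiff_of_subset hSA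
    have hle := card_le_card hSA
    split_ifs with h
    · rw [hc] at h ⊢
      obtain ⟨m, hm⟩ : ∃ m, A.card = S.card + m := ⟨A.card - S.card, by omega⟩
      have hm' : A.card - S.card = m := by omega
      rw [hm'] at h ⊢
      rw [hm]
      have h1 : (1 - p) ^ m ≤ 1 := pow_le_one₀ (by linarith) (by linarith)
      have h2 : s ^ m ≤ (r * p) ^ m := pow_le_pow_left₀ hs hr m
      have h3 : r ^ m ≤ r ^ c := pow_le_pow_of_le_one hr0 hr1 h
      have h4 : p ^ S.card * (1 - p) ^ m * (s ^ m / p ^ (S.card + m))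
          = (1 - p) ^ m * (s ^ m / p ^ m) := by
        rw [pow_add]; field_simp
      have h5 : s ^ m / p ^ m ≤ r ^ m := by
        rw [div_le_iff₀ (by positivity), ← mul_pow]; exact h2
      have h6 : 0 ≤ s ^ m / p ^ m := by positivity
      rw [h4]
      have h7 : 0 ≤ (1 - p) ^ m := pow_nonneg (by linarith) m
      nlinarith
    · simp only [mul_zero]
      positivity
  refine (Finset.sum_le_sum h).trans ?_
  rw [Finset.sum_const, card_powerset, nsmul_eq_mul]
  simp

end Vale.Agent.P064
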