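import Vale.Agent.P064.Chain
import Vale.Agent.P064.Defs

/-!
From the abstract bound to random graphs.
-/

namespace Vale.Agent.P064

open Finset Pointwise

section fiber

variable {X : Type*} [DecidableEq X] {Γ : Type*} [Group Γ] [Fintype Γ] [MulAction Γ X]

theorem fiber_mul_le (S T : Finset X) :
    (univ.filter fun g : Γ => g • S = T).card * (univ.image fun g : Γ => g • S).card
      ≤ Fintype.card Γ := by
  classical
  rcases (univ.filter fun g : Γ => g • S = T).eq_empty_or_nonempty with h | ⟨g0, hg0⟩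
  · simp [h]
  have hg0' : g0 • S = T := (mem_filter.1 hg0).2
  have h1 := Finset.card_eq_sum_card_image (fun g : Γ => g • S) univ
  rw [card_univ] at h1
  rw [h1, mul_comm, ← smul_eq_mul, ← Finset.sum_const]
  refine Finset.sum_le_sum fun T' hT' => ?_
  obtain ⟨g1, -, hg1⟩ := mem_image.1 hT'
  refine Finset.card_le_card_of_injOn (fun g => g1 * g0⁻¹ * g) (fun g hg => ?_)
    (fun g _ g' _ e => by simpa using e)
  simp only [coe_filter, mem_univ, true_and, Set.mem_setOf_eq] at hg ⊢
  rw [mul_smul, hg, mul_smul, ← hg0', inv_smul_smul, hg1]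

theorem fiber_le (q : ℝ) (hq : 0 ≤ q) (S T : Finset X)
    (h : 1 / 2 ≤ ((univ.image fun g : Γ => g • S).card : ℝ) * q ^ S.card) :
    ((univ.filter fun g : Γ => g • S = T).card : ℝ) ≤ 2 * q ^ S.card * Fintype.card Γ := by
  have h1 : ((univ.filter fun g : Γ => g • S = T).card : ℝ) *
      (univ.image fun g : Γ => g • S).card ≤ Fintype.card Γ := by
    exact_mod_cast fiber_mul_le (Γ := Γ) S T
  have h2 : (0 : ℝ) ≤ (univ.filter fun g : Γ => g • S = T).card := Nat.cast_nonneg _
  have h3 : (0 : ℝ) ≤ q ^ S.card := by positivity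
  nlinarith [mul_le_mul_of_nonneg_left h h2, mul_le_mul_of_nonneg_left h1 h3]

theorem Ex_subset (p : ℝ) {T Y : Finset X} (h : T ⊆ Y) :
    Ex p Y (fun W => if T ⊆ W then 1 else 0) = p ^ T.card := by
  rw [Ex_split p h, ← mul_one (p ^ T.card), ← Ex_top]
  refine Ex_congr p T fun S hS => ?_
  refine Eq.trans (Ex_congr p _ fun R hR => ?_) (Ex_const p _ _)
  have : T ⊆ S ∪ R ↔ T ⊆ S := by
    constructor
    · intro h' x hx
      rcases mem_union.1 (h' hx) with h'' | h''
      · exact h''
      · exact absurd hx (mem_sdiff.1 (hR h'')).2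
    · intro h'
      exact h'.trans subset_union_left
  simp only [this]

omit [DecidableEq X] in
theorem Ex_one (Y : Finset X) (f : Finset X → ℝ) : Ex 1 Y f = f Y := by
  unfold Ex
  rw [Finset.sum_eq_single Y]
  · simp
  · intro S hS hne
    have h1 : S.card < Y.card :=
      card_lt_card (Finset.ssubset_iff_subset_ne.2 ⟨mem_powerset.1 hS, hne⟩)
    have : Y.card - S.card ≠ 0 := by omega
    simp [this]
  · intro h
    exact absurd (mem_powerset_self Y) h

end fiber

/-- permutations of the vertices act on pairs -/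
@[reducible] def permAct (n : ℕ) : MulAction (Equiv.Perm (Fin n)) (Sym2 (Fin n)) where
  smul g e := e.map g
  one_smul e := by
    change e.map (1 : Equiv.Perm (Fin n)) = e
    simp
  mul_smul g h e := by
    change e.map (g * h) = (e.map h).map g
    rw [Sym2.map_map]
    rfl

attribute [local instance] permAct

theorem perm_smul {n : ℕ} (g : Equiv.Perm (Fin n)) (a b : Fin n) :
    g • s(a, b) = s(g a, g b) := rfl

/-- the set of all possible edges -/
def allE (n : ℕ) : Finset (Sym2 (Fin n)) := univ.filter fun e => ¬ e.IsDiag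

theorem card_allE (n : ℕ) : (allE n).card = n.choose 2 := by
  have := Sym2.card_subtype_not_diag (α := Fin n)
  rw [Fintype.card_subtype, Fintype.card_fin] at this
  exact this

theorem sum_graph (n : ℕ) (p : ℝ) (f : SimpleGraph (Fin n) → ℝ) :
    ∑ G : SimpleGraph (Fin n), gnpWeight n p G * f G
      = Ex p (allE n) (fun W => f (SimpleGraph.fromEdgeSet (W : Set (Sym2 (Fin n))))) := by
  classical
  unfold Ex
  symm
  have hE : ∀ W ∈ (allE n).powerset,
      (SimpleGraph.fromEdgeSet (W : Set (Sym2 (Fin n)))).edgeSet = W := by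
    intro W hW
    rw [SimpleGraph.edgeSet_fromEdgeSet]
    ext e
    simp only [Set.mem_diff, mem_coe, Sym2.mem_diagSet, and_iff_left_iff_imp]
    intro he
    exact (mem_filter.1 (mem_powerset.1 hW he)).2
  refine Finset.sum_nbij' (fun W => SimpleGraph.fromEdgeSet (W : Set (Sym2 (Fin n))))
    (fun G => univ.filter fun e => e ∈ G.edgeSet) (fun _ _ => mem_univ _) (fun G _ => ?_)
    (fun W hW => ?_) (fun G _ => ?_) (fun W hW => ?_)
  · rw [mem_powerset]
    intro e he
    exact mem_filter.2 ⟨mem_univ _, G.not_isDiag_of_mem_edgeSet (mem_filter.1 he).2⟩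
  · ext e
    simp only [mem_filter, mem_univ, true_and]
    rw [hE W hW]
    simp
  · have : ((univ.filter fun e => e ∈ G.edgeSet : Finset (Sym2 (Fin n))) : Set (Sym2 (Fin n)))
        = G.edgeSet := by
      ext e
      simp
    rw [this, SimpleGraph.fromEdgeSet_edgeSet]
  · unfold gnpWeight
    rw [hE W hW, Set.ncard_coe_finset, card_allE]

variable {V : Type} {n : ℕ}

open Classical in
/-- the edge set of `H` transported to `Fin n` -/
noncomputable def imgE (H : SimpleGraph V) (ι : V ↪ Fin n) : Finset (Sym2 (Fin n)) :=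
  univ.filter fun e => ∃ u v, H.Adj u v ∧ e = s(ι u, ι v)

theorem mem_imgE {H : SimpleGraph V} {ι : V ↪ Fin n} {e : Sym2 (Fin n)} :
    e ∈ imgE H ι ↔ ∃ u v, H.Adj u v ∧ e = s(ι u, ι v) := by
  simp [imgE]

theorem smul_imgE_subset (H : SimpleGraph V) (ι : V ↪ Fin n) (g : Equiv.Perm (Fin n)) :
    g • imgE H ι ⊆ allE n := by
  intro e he
  obtain ⟨e', he', rfl⟩ := Finset.mem_smul_finset.1 he
  obtain ⟨u, v, huv, rfl⟩ := mem_imgE.1 he'
  rw [perm_smul]
  simp only [allE, mem_filter, mem_univ, true_and, Sym2.mk_isDiag_iff]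
  intro h
  exact huv.ne (ι.injective (g.injective h))

theorem copy_of_subset (H : SimpleGraph V) (ι : V ↪ Fin n) (g : Equiv.Perm (Fin n))
    (W : Finset (Sym2 (Fin n))) (h : g • imgE H ι ⊆ W) :
    0 < (SimpleGraph.fromEdgeSet (W : Set (Sym2 (Fin n)))).copyCount H := by
  rw [SimpleGraph.copyCount_pos]
  refine ⟨⟨⟨fun v => g (ι v), fun {u v} huv => ?_⟩, g.injective.comp ι.injective⟩⟩
  rw [SimpleGraph.fromEdgeSet_adj]
  refine ⟨h (Finset.mem_smul_finset.2 ⟨s(ι u, ι v), mem_imgE.2 ⟨u, v, huv, rfl⟩, rfl⟩), ?_⟩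
  intro h'
  exact huv.ne (ι.injective (g.injective h'))

/-- the subgraph of `H` spanned by the edges whose image lies in `S` -/
def spanSub (H : SimpleGraph V) (ι : V ↪ Fin n) (S : Finset (Sym2 (Fin n))) : H.Subgraph where
  verts := {v | ∃ u, H.Adj v u ∧ s(ι v, ι u) ∈ S}
  Adj u v := H.Adj u v ∧ s(ι u, ι v) ∈ S
  adj_sub h := h.1
  edge_vert h := ⟨_, h⟩
  symm := ⟨fun u v h => ⟨h.1.symm, by rw [Sym2.eq_swap]; exact h.2⟩⟩

theorem copyCount_le [Fintype V] (H : SimpleGraph V) (ι : V ↪ Fin n)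
    (S : Finset (Sym2 (Fin n))) (hS : S ⊆ imgE H ι) (W : Finset (Sym2 (Fin n))) :
    (SimpleGraph.fromEdgeSet (W : Set (Sym2 (Fin n)))).copyCount (spanSub H ι S).coe
      ≤ ((univ.image fun g : Equiv.Perm (Fin n) => g • S).filter fun T => T ⊆ W).card := by
  classical
  unfold SimpleGraph.copyCount
  refine Finset.card_le_card_of_injOn (fun G' => univ.filter fun e => e ∈ G'.edgeSet)
    (fun G' hG' => ?_) (fun G1 h1 G2 h2 e => ?_)
  · obtain ⟨e⟩ : Nonempty ((spanSub H ι S).coe ≃g G'.coe) := by simpa using hG'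
    obtain ⟨g, hg⟩ := Equiv.Perm.exists_extending_pair
      (fun v : (spanSub H ι S).verts => ι v.1) (fun v => (e v).1)
      (ι.injective.comp Subtype.val_injective) (Subtype.val_injective.comp e.injective)
    simp only [coe_filter, mem_image, mem_univ, true_and, Set.mem_setOf_eq]
    refine ⟨⟨g, ?_⟩, ?_⟩
    · ext x
      simp only [mem_filter, mem_univ, true_and]
      constructor
      · intro hx
        obtain ⟨y, hy, rfl⟩ := Finset.mem_smul_finset.1 hx
        obtain ⟨u, v, huv, rfl⟩ := mem_imgE.1 (hS hy)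
        have hadj : (spanSub H ι S).Adj u v := ⟨huv, hy⟩
        have h3 := e.map_rel_iff.2 hadj.coe
        rw [perm_smul, hg ⟨u, hadj.fst_mem⟩, hg ⟨v, hadj.snd_mem⟩]
        exact h3
      · intro hx
        induction x using Sym2.ind with
        | h a b =>
          have hab : G'.Adj a b := hx
          have h3 := e.symm.map_rel_iff.2 hab.coe
          refine Finset.mem_smul_finset.2 ⟨_, h3.2, ?_⟩
          rw [perm_smul, hg, hg]
          simp
    · intro x hx
      induction x using Sym2.ind with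
      | h a b =>
        have hab : G'.Adj a b := (mem_filter.1 hx).2
        exact ((SimpleGraph.fromEdgeSet_adj _).1 hab.adj_sub).1
  · have hv : ∀ G' : (SimpleGraph.fromEdgeSet (W : Set (Sym2 (Fin n)))).Subgraph,
        Nonempty ((spanSub H ι S).coe ≃g G'.coe) → ∀ a, a ∈ G'.verts ↔ ∃ b, G'.Adj a b := by
      rintro G' ⟨e⟩ a
      constructor
      · intro ha
        obtain ⟨u, hu⟩ := (e.symm ⟨a, ha⟩).2
        have hadj : (spanSub H ι S).Adj (e.symm ⟨a, ha⟩).1 u := hu
        have h3 := e.map_rel_iff.2 hadj.coe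
        refine ⟨(e ⟨u, hadj.snd_mem⟩).1, ?_⟩
        simpa using h3
      · rintro ⟨b, hb⟩
        exact hb.fst_mem
    have hadj : ∀ a b, G1.Adj a b ↔ G2.Adj a b := by
      intro a b
      have := congrArg (fun T : Finset (Sym2 (Fin n)) => s(a, b) ∈ T) e
      simpa using this
    have h1' : Nonempty ((spanSub H ι S).coe ≃g G1.coe) := by simpa using h1
    have h2' : Nonempty ((spanSub H ι S).coe ≃g G2.coe) := by simpa using h2
    refine SimpleGraph.Subgraph.ext ?_ ?_
    · ext a
      rw [hv G1 h1' a, hv G2 h2' a]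
      simp only [hadj]
    · ext a b
      exact hadj a b

theorem expCount_le [Fintype V] (H : SimpleGraph V) (ι : V ↪ Fin n)
    (S : Finset (Sym2 (Fin n))) (hS : S ⊆ imgE H ι) (q : ℝ) (h0 : 0 ≤ q) (h1 : q ≤ 1) :
    expCount n (spanSub H ι S).coe q
      ≤ ((univ.image fun g : Equiv.Perm (Fin n) => g • S).card : ℝ) * q ^ S.card := by
  unfold expCount
  rw [sum_graph n q (fun G => (G.copyCount (spanSub H ι S).coe : ℝ))]
  refine le_trans (Ex_mono h0 h1 _ (g := fun W =>
    ∑ T ∈ (univ.image fun g : Equiv.Perm (Fin n) => g • S), if T ⊆ W then 1 else 0)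
    fun W _ => ?_) ?_
  · have := copyCount_le H ι S hS W
    rw [Finset.card_filter] at this
    exact_mod_cast this
  · rw [Ex_sum, ← nsmul_eq_mul, ← Finset.sum_const]
    refine Finset.sum_le_sum fun T hT => le_of_eq ?_
    obtain ⟨g, -, rfl⟩ := mem_image.1 hT
    rw [Ex_subset q ((Finset.smul_finset_subset_smul_finset hS).trans (smul_imgE_subset H ι g)),
      Finset.card_smul_finset]

theorem containProb_eq (H : SimpleGraph V) (p : ℝ) :
    containProb n H p = Ex p (allE n) (fun W =>
      if 0 < (SimpleGraph.fromEdgeSet (W : Set (Sym2 (Fin n)))).copyCount H then 1 else 0) := by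
  rw [← sum_graph n p (fun G => if 0 < G.copyCount H then 1 else 0)]
  unfold containProb
  refine Finset.sum_congr rfl fun G _ => ?_
  split_ifs <;> simp

theorem continuous_gnpWeight (G : SimpleGraph (Fin n)) :
    Continuous fun p => gnpWeight n p G := by
  unfold gnpWeight
  fun_prop

theorem exists_pc (H : SimpleGraph V) (ι : V ↪ Fin n) :
    ∃ pc, IsLeast {p : ℝ | p ∈ Set.Icc (0 : ℝ) 1 ∧ 1 / 2 ≤ containProb n H p} pc := by
  have hc : Continuous fun p => containProb n H p := by
    unfold containProb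
    refine continuous_finset_sum _ fun G _ => ?_
    split_ifs
    · exact continuous_gnpWeight G
    · exact continuous_const
  refine IsCompact.exists_isLeast (isCompact_Icc.inter_right (isClosed_le continuous_const hc))
    ⟨1, ⟨zero_le_one, le_rfl⟩, ?_⟩
  rw [containProb_eq, Ex_one, if_pos (copy_of_subset H ι 1 _ (smul_imgE_subset H ι 1))]
  norm_num

theorem exists_pE (H : SimpleGraph V) (ι : V ↪ Fin n) :
    ∃ pE, IsLeast {p : ℝ | p ∈ Set.Icc (0 : ℝ) 1 ∧
      ∀ F : H.Subgraph, 1 / 2 ≤ expCount n F.coe p} pE := by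
  have hc : ∀ F : H.Subgraph, Continuous fun p => expCount n F.coe p := by
    intro F
    unfold expCount
    exact continuous_finset_sum _ fun G _ => (continuous_gnpWeight G).mul continuous_const
  have hcl : IsClosed {p : ℝ | ∀ F : H.Subgraph, 1 / 2 ≤ expCount n F.coe p} := by
    rw [Set.setOf_forall]
    exact isClosed_iInter fun F => isClosed_le continuous_const (hc F)
  refine IsCompact.exists_isLeast (isCompact_Icc.inter_right hcl)
    ⟨1, ⟨zero_le_one, le_rfl⟩, fun F => ?_⟩
  unfold expCount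
  rw [sum_graph n 1 (fun G => (G.copyCount F.coe : ℝ)), Ex_one]
  have h1 := copy_of_subset H ι 1 _ (smul_imgE_subset H ι 1)
  rw [SimpleGraph.copyCount_pos] at h1
  have h2 := SimpleGraph.copyCount_pos.2 (SimpleGraph.IsContained.trans ⟨F.coeCopy⟩ h1)
  have h3 : (1 : ℝ) ≤ (SimpleGraph.fromEdgeSet
      ((allE n : Finset (Sym2 (Fin n))) : Set (Sym2 (Fin n)))).copyCount F.coe := by
    exact_mod_cast h2
  linarith

theorem main_bound [Fintype V] (hn : 2 ≤ n) (H : SimpleGraph V) (ι : V ↪ Fin n)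
    (hH : H.edgeSet.Nonempty) (q : ℝ) (h0 : 0 ≤ q) (h1 : q ≤ 1)
    (hq : ∀ F : H.Subgraph, 1 / 2 ≤ expCount n F.coe q) (pc : ℝ)
    (hpc : IsLeast {p : ℝ | p ∈ Set.Icc (0 : ℝ) 1 ∧ 1 / 2 ≤ containProb n H p} pc) :
    pc ≤ 7 * 2 ^ 82 * q * Real.log n := by
  classical
  have horb : ∀ S ⊆ imgE H ι,
      1 / 2 ≤ ((univ.image fun g : Equiv.Perm (Fin n) => g • S).card : ℝ) * q ^ S.card :=
    fun S hS => (hq _).trans (expCount_le H ι S hS q h0 h1)
  have hne : (imgE H ι).Nonempty := by
    obtain ⟨e, he⟩ := hH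
    induction e using Sym2.ind with
    | h u v => exact ⟨_, mem_imgE.2 ⟨u, v, he, rfl⟩⟩
  have hcard : (imgE H ι).card ≠ 0 := hne.card_pos.ne'
  have hq0 : 0 < q := by
    rcases h0.lt_or_eq with h | h
    · exact h
    · have := horb _ (Subset.refl _)
      rw [← h, zero_pow hcard, mul_zero] at this
      norm_num at this
  have hn' : (2 : ℝ) ≤ n := by exact_mod_cast hn
  have hlog : Real.log 2 ≤ Real.log n := Real.log_le_log (by norm_num) hn'
  have hl2 := Real.log_two_gt_d9
  by_cases hbig : 2 ^ 82 * q ≤ 1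
  · set k := Nat.log 16 (imgE H ι).card + 1 with hk
    have hc : (imgE H ι).card < 16 ^ k := Nat.lt_pow_succ_log_self (by norm_num) _
    have h2 := abstract_bound (Γ := Equiv.Perm (Fin n)) q hq0 hbig (allE n) (imgE H ι) k
      (smul_imgE_subset H ι) hc (fun S hS T => fiber_le q h0 S T (horb S hS))
    set p : ℝ := 2 ^ 82 * q with hp
    have hp0 : 0 < p := by positivity
    have ha : 0 ≤ (1 - p) ^ (2 * k + 1) := pow_nonneg (by linarith) _
    have hb : (1 - p) ^ (2 * k + 1) ≤ 1 := pow_le_one₀ (by linarith) (by linarith)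
    have h3 : pc ≤ 1 - (1 - p) ^ (2 * k + 1) := by
      refine hpc.2 ⟨⟨by linarith, by linarith⟩, h2.trans ?_⟩
      rw [containProb_eq]
      refine Ex_mono (by linarith) (by linarith) _ fun W _ => ?_
      split_ifs with h4 h5
      · exact le_rfl
      · obtain ⟨g, hg⟩ := h4
        exact absurd (copy_of_subset H ι g W hg) h5
      · exact zero_le_one
      · exact le_rfl
    have h4 : 1 + ((2 * k + 1 : ℕ) : ℝ) * (-p) ≤ (1 + (-p)) ^ (2 * k + 1) :=
      one_add_mul_le_pow (by linarith) _
    have h5 : pc ≤ ((2 * k + 1 : ℕ) : ℝ) * p := by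
      rw [← sub_eq_add_neg] at h4
      linarith
    have h6 : 16 ^ Nat.log 16 (imgE H ι).card ≤ n ^ 2 := by
      refine (Nat.pow_log_le_self 16 hcard).trans ?_
      have := card_le_card (smul_imgE_subset H ι 1)
      rw [one_smul, card_allE] at this
      exact this.trans (Nat.choose_le_pow n 2)
    have h7 : (Nat.log 16 (imgE H ι).card : ℝ) * Real.log 16 ≤ 2 * Real.log n := by
      have h8 : ((16 : ℝ)) ^ Nat.log 16 (imgE H ι).card ≤ (n : ℝ) ^ 2 := by exact_mod_cast h6
      have := Real.log_le_log (by positivity) h8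
      rwa [Real.log_pow, Real.log_pow] at this
    have h9 : Real.log 16 = 4 * Real.log 2 := by
      rw [show (16 : ℝ) = 2 ^ 4 by norm_num, Real.log_pow]; norm_num
    have h10 : (0 : ℝ) ≤ Nat.log 16 (imgE H ι).card := Nat.cast_nonneg _
    have h11 : (Nat.log 16 (imgE H ι).card : ℝ) ≤ Real.log n := by nlinarith
    have h12 : ((2 * k + 1 : ℕ) : ℝ) ≤ 7 * Real.log n := by
      rw [hk]
      push_cast
      linarith
    have h13 := mul_le_mul_of_nonneg_right h12 hp0.le
    calc pc ≤ 7 * Real.log n * p := h5.trans h13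
      _ = 7 * 2 ^ 82 * q * Real.log n := by rw [hp]; ring
  · push Not at hbig
    have h2 : pc ≤ 1 := hpc.1.1.2
    have h3 : 1 ≤ 7 * Real.log n := by linarith
    calc pc ≤ 1 * 1 := by linarith
      _ ≤ (2 ^ 82 * q) * (7 * Real.log n) := mul_le_mul hbig.le h3 zero_le_one (by positivity)
      _ = 7 * 2 ^ 82 * q * Real.log n := by ring

end Vale.Agent.P064
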