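import Vale.Agent.P064.Exp

/-!
Spread trees and the simultaneous reduction of all their levels.
-/

namespace Vale.Agent.P064

open Finset

variable {X : Type*} [Fintype X] [DecidableEq X]

/-- the required total weight at a level with capacity `16 ^ j` -/
noncomputable def mass (j : ℕ) : ℝ := 1 - (1 / 2) ^ (j + 1)

/-- there is a spread tree of depth `k` with top capacity `16 ^ j`, labels inside `Y`, all of
whose path unions satisfy `F` -/
def Tree (σ : ℝ) : ℕ → ℕ → Finset X → (Finset X → Prop) → Prop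
  | 0, _, _, F => F ∅
  | k + 1, j, Y, F => ∃ ν : Finset X → ℝ, (∀ A, 0 ≤ ν A) ∧ mass j ≤ ∑ A, ν A ∧
      (∀ J : Finset X, ∑ A, (if J ⊆ A then ν A else 0) ≤ σ ^ J.card) ∧
      ∀ A, ν A ≠ 0 → A ⊆ Y ∧ A.card < 16 ^ j ∧ Tree σ k (j + 1) (Y \ A) (fun U => F (A ∪ U))

theorem Tree.mono (σ : ℝ) : ∀ (k j : ℕ) (Y Y' : Finset X) (F F' : Finset X → Prop),
    Y ⊆ Y' → (∀ U, F U → F' U) → Tree σ k j Y F → Tree σ k j Y' F'
  | 0, _, _, _, _, _, _, hF, h => hF _ h
  | k + 1, j, _, _, _, _, hY, hF, ⟨ν, h0, h1, h2, h3⟩ =>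
    ⟨ν, h0, h1, h2, fun A hA => ⟨(h3 A hA).1.trans hY, (h3 A hA).2.1,
      Tree.mono σ k (j + 1) _ _ _ _ (sdiff_subset_sdiff hY (Subset.refl A))
        (fun _ hU => hF _ hU) (h3 A hA).2.2⟩⟩

theorem Tree.drop (σ : ℝ) (k : ℕ) (Y : Finset X) (F : Finset X → Prop)
    (h : Tree σ (k + 1) 0 Y F) : Tree σ k 1 Y F := by
  obtain ⟨ν, -, h1, -, h3⟩ := h
  have : ∃ A, ν A ≠ 0 := by
    by_contra hc
    push Not at hc
    simp only [hc, sum_const_zero, mass] at h1
    norm_num at h1
  obtain ⟨A, hA⟩ := this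
  obtain ⟨-, h4, h5⟩ := h3 A hA
  have hA0 : A = ∅ := card_eq_zero.1 (by omega)
  subst hA0
  exact Tree.mono σ k 1 _ _ _ _ sdiff_subset (fun U hU => by simpa using hU) h5

/-- the child `a` may be used for the reduction -/
def Usable (σ : ℝ) (k j : ℕ) (Y : Finset X) (F : Finset X → Prop) (a w : Finset X) : Prop :=
  (a \ w).card < 16 ^ j ∧ Tree σ k (j + 1) (Y \ a) (fun U => F (a ∪ ((w \ a) ∪ U)))

/-- the child `a` can be reduced -/
def Ok (σ : ℝ) (k j : ℕ) (Y : Finset X) (F : Finset X → Prop) (ν : Finset X → ℝ)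
    (a w : Finset X) : Prop :=
  ∃ a', ν a' ≠ 0 ∧ a' ⊆ w ∪ a ∧ Usable σ k j Y F a' w

open Classical in
theorem tree_of_small (σ : ℝ) (k j : ℕ) (Y : Finset X) (F : Finset X → Prop)
    (ν : Finset X → ℝ) (h0 : ∀ A, 0 ≤ ν A) (h1 : mass (j + 1) ≤ ∑ A, ν A)
    (h2 : ∀ J : Finset X, ∑ A, (if J ⊆ A then ν A else 0) ≤ σ ^ J.card)
    (h3 : ∀ A, ν A ≠ 0 → A ⊆ Y) (w : Finset X)
    (hb : ∑ a, ν a * (if Ok σ k j Y F ν a w then 0 else 1) ≤ (1 / 2) ^ (j + 2)) :
    Tree σ (k + 1) j Y (fun U => F (w ∪ U)) := by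
  have hT : ∀ a, ∃ T : Finset X, Ok σ k j Y F ν a w → T ⊆ a ∧ T ⊆ Y ∧ T.card < 16 ^ j ∧
      Tree σ k (j + 1) (Y \ T) (fun U => F (w ∪ (T ∪ U))) := by
    intro a
    by_cases h : Ok σ k j Y F ν a w
    · obtain ⟨a', ha', hsub, hc, ht⟩ := h
      refine ⟨a' \ w, fun _ => ⟨?_, sdiff_subset.trans (h3 a' ha'), hc, ?_⟩⟩
      · intro x hx
        rcases mem_union.1 (hsub (mem_sdiff.1 hx).1) with h | h
        · exact absurd h (mem_sdiff.1 hx).2
        · exact h
      · refine Tree.mono σ k (j + 1) _ _ _ _ (sdiff_subset_sdiff (Subset.refl Y) sdiff_subset)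
          (fun U hU => ?_) ht
        have : w ∪ (a' \ w ∪ U) = a' ∪ (w \ a' ∪ U) := by
          ext x; simp only [mem_union, mem_sdiff]; tauto
        rw [this]; exact hU
    · exact ⟨∅, fun h' => absurd h' h⟩
  choose T hT using hT
  refine ⟨fun B => ∑ a, if Ok σ k j Y F ν a w ∧ T a = B then ν a else 0, fun B => ?_, ?_,
    fun J => ?_, fun B hB => ?_⟩
  · exact Finset.sum_nonneg fun a _ => by split_ifs; exacts [h0 a, le_rfl]
  · rw [Finset.sum_comm]
    have e1 : ∀ a, (∑ B, if Ok σ k j Y F ν a w ∧ T a = B then ν a else 0)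
        = ν a - ν a * (if Ok σ k j Y F ν a w then 0 else 1) := by
      intro a
      by_cases h : Ok σ k j Y F ν a w
      · simp [h]
      · simp [h]
    simp only [e1, Finset.sum_sub_distrib]
    have e2 : mass j = mass (j + 1) - (1 / 2) ^ (j + 2) := by
      unfold mass; ring
    linarith
  · refine le_trans ?_ (h2 J)
    have e1 : ∀ B : Finset X, (if J ⊆ B then
        (∑ a, if Ok σ k j Y F ν a w ∧ T a = B then ν a else 0) else 0)
        = ∑ a, if (Ok σ k j Y F ν a w ∧ J ⊆ T a) ∧ T a = B then ν a else 0 := by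
      intro B
      by_cases h : J ⊆ B
      · rw [if_pos h]
        refine Finset.sum_congr rfl fun a _ => ?_
        by_cases h' : T a = B
        · simp [h', h]
        · simp [h']
      · rw [if_neg h]
        symm
        refine Finset.sum_eq_zero fun a _ => ?_
        rw [if_neg]
        rintro ⟨⟨-, h'⟩, h''⟩
        exact h (h'' ▸ h')
    simp only [e1]
    rw [Finset.sum_comm]
    refine Finset.sum_le_sum fun a _ => ?_
    by_cases h : Ok σ k j Y F ν a w ∧ J ⊆ T a
    · have : J ⊆ a := h.2.trans (hT a h.1).1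
      simp [h, this]
    · simp only [h, false_and, if_false, sum_const_zero]
      split_ifs
      exacts [h0 a, le_rfl]
  · obtain ⟨a, -, ha⟩ := Finset.exists_ne_zero_of_sum_ne_zero hB
    have h : Ok σ k j Y F ν a w ∧ T a = B := by
      by_contra h
      exact ha (if_neg h)
    obtain ⟨h4, h5⟩ := h
    subst h5
    exact ⟨(hT a h4).2.1, (hT a h4).2.2.1, (hT a h4).2.2.2⟩

/-- the likelihood ratio of the planted model -/
noncomputable def lik (p : ℝ) (ν : Finset X → ℝ) (z : Finset X) : ℝ :=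
  ∑ a, if a ⊆ z then ν a / p ^ a.card else 0

open Classical in
theorem fail_le (σ p η : ℝ) (hp : 0 < p) (hη : 0 < η) (k j : ℕ) (Y : Finset X)
    (F : Finset X → Prop) (ν : Finset X → ℝ) (h0 : ∀ A, 0 ≤ ν A) (a w : Finset X) :
    (if Ok σ k j Y F ν a w then (0 : ℝ) else 1) ≤ (if lik p ν (w ∪ a) ≤ η then 1 else 0) +
      η⁻¹ * ∑ a', if a' \ w ⊆ a then
        ν a' / p ^ a'.card * (if Usable σ k j Y F a' w then 0 else 1) else 0 := by
  have hs : 0 ≤ ∑ a', if a' \ w ⊆ a then
      ν a' / p ^ a'.card * (if Usable σ k j Y F a' w then (0 : ℝ) else 1) else 0 :=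
    Finset.sum_nonneg fun a' _ => by
      have := h0 a'
      split_ifs <;> positivity
  have hs' := mul_nonneg (inv_nonneg.2 hη.le) hs
  by_cases h : Ok σ k j Y F ν a w
  · rw [if_pos h]
    split_ifs <;> linarith
  · rw [if_neg h]
    by_cases h' : lik p ν (w ∪ a) ≤ η
    · rw [if_pos h']; linarith
    · rw [if_neg h', zero_add]
      have e : (∑ a', if a' \ w ⊆ a then
          ν a' / p ^ a'.card * (if Usable σ k j Y F a' w then (0 : ℝ) else 1) else 0)
          = lik p ν (w ∪ a) := by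
        unfold lik
        refine Finset.sum_congr rfl fun a' _ => ?_
        have e1 : a' \ w ⊆ a ↔ a' ⊆ w ∪ a := by
          constructor
          · intro h1 x hx
            by_cases hw : x ∈ w
            · exact mem_union_left _ hw
            · exact mem_union_right _ (h1 (mem_sdiff.2 ⟨hx, hw⟩))
          · intro h1 x hx
            rcases mem_union.1 (h1 (mem_sdiff.1 hx).1) with h2 | h2
            · exact absurd h2 (mem_sdiff.1 hx).2
            · exact h2
        by_cases h1 : a' ⊆ w ∪ a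
        · rw [if_pos (e1.2 h1), if_pos h1]
          by_cases h2 : ν a' = 0
          · simp [h2]
          · rw [if_neg (fun h3 => h ⟨a', h2, h1, h3⟩), mul_one]
        · rw [if_neg (fun h2 => h1 (e1.1 h2)), if_neg h1]
      rw [e, inv_mul_eq_div, le_div_iff₀ hη]
      push Not at h'
      linarith

open Classical in
theorem term_one (p η : ℝ) (hp : 0 < p) (hp1 : p ≤ 1) (hη : 0 < η) (Y : Finset X)
    (ν : Finset X → ℝ) (h3 : ∀ A, ν A ≠ 0 → A ⊆ Y) :
    Ex p Y (fun w => ∑ a, ν a * (if lik p ν (w ∪ a) ≤ η then 1 else 0)) ≤ η := by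
  rw [Ex_sum]
  have e1 : ∀ a, Ex p Y (fun w => ν a * (if lik p ν (w ∪ a) ≤ η then 1 else 0))
      = Ex p Y (fun z => (if lik p ν z ≤ η then 1 else 0) *
        (if a ⊆ z then ν a / p ^ a.card else 0)) := by
    intro a
    by_cases h : ν a = 0
    · simp [h]
    · rw [Ex_plant hp (h3 a h) (fun z => ν a * (if lik p ν z ≤ η then 1 else 0))]
      refine Ex_congr p Y fun z _ => ?_
      split_ifs <;> ring
  simp only [e1]
  rw [← Ex_sum]
  refine le_trans (Ex_mono hp.le hp1 Y (g := fun _ => η) fun z _ => ?_) (Ex_const p Y η).le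
  rw [← Finset.mul_sum]
  change (if lik p ν z ≤ η then 1 else 0) * lik p ν z ≤ η
  split_ifs with h
  · linarith
  · linarith

open Classical in
theorem term_two (σ p x : ℝ) (hp : 0 < p) (hp1 : p ≤ 1) (hσ : 0 ≤ σ)
    (hσp : σ ≤ (1 / 2) ^ 64 * p) (k j : ℕ) (hx : x = (1 / 2) ^ (16 ^ j)) (Y : Finset X)
    (F : Finset X → Prop) (a : Finset X) (ha : a ⊆ Y) (hc : a.card < 16 ^ (j + 1))
    (hrec : Ex p (Y \ a) (fun R => if Tree σ k (j + 1) (Y \ a) (fun U => F (a ∪ (R ∪ U)))
      then 0 else 1) ≤ (1 / 2) ^ (4 * 16 ^ (j + 1))) :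
    Ex p Y (fun w => σ ^ (a \ w).card / p ^ a.card * (if Usable σ k j Y F a w then 0 else 1))
      ≤ 2 * x ^ 48 := by
  rw [Ex_split p ha]
  have hx0 : 0 < x := by rw [hx]; positivity
  have e64 : ((1 : ℝ) / 2) ^ (4 * 16 ^ (j + 1)) = x ^ 64 := by
    rw [hx, ← pow_mul]; congr 1; ring
  have e64' : (((1 : ℝ) / 2) ^ 64) ^ (16 ^ j) = x ^ 64 := by
    rw [hx, ← pow_mul, ← pow_mul]; congr 1; ring
  have e16 : (2 : ℝ) ^ a.card * x ^ 16 ≤ 1 := by
    have h1 : (2 : ℝ) ^ a.card ≤ 2 ^ (16 ^ j * 16) :=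
      pow_le_pow_right₀ (by norm_num) (by rw [← pow_succ]; omega)
    have h2 : (2 : ℝ) ^ (16 ^ j * 16) * x ^ 16 = 1 := by
      rw [hx, ← pow_mul, ← mul_pow]; norm_num
    have h3 : 0 ≤ x ^ 16 := by positivity
    nlinarith
  rw [e64] at hrec
  have hin : ∀ S ⊆ a, Ex p (Y \ a) (fun R => σ ^ (a \ (S ∪ R)).card / p ^ a.card *
      (if Usable σ k j Y F a (S ∪ R) then 0 else 1))
      ≤ (if 16 ^ j ≤ (a \ S).card then σ ^ (a \ S).card / p ^ a.card else 0)
        + x ^ 64 * (if 0 ≤ (a \ S).card then σ ^ (a \ S).card / p ^ a.card else 0) := by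
    intro S hS
    rw [if_pos (Nat.zero_le _)]
    have hq : 0 ≤ σ ^ (a \ S).card / p ^ a.card := by positivity
    have h1 : Ex p (Y \ a) (fun R => σ ^ (a \ (S ∪ R)).card / p ^ a.card *
        (if Usable σ k j Y F a (S ∪ R) then 0 else 1))
        ≤ Ex p (Y \ a) (fun R =>
          (if 16 ^ j ≤ (a \ S).card then σ ^ (a \ S).card / p ^ a.card else 0)
          + σ ^ (a \ S).card / p ^ a.card *
            (if Tree σ k (j + 1) (Y \ a) (fun U => F (a ∪ (R ∪ U))) then 0 else 1)) := by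
      refine Ex_mono hp.le hp1 _ fun R hR => ?_
      have e1 : a \ (S ∪ R) = a \ S := by
        ext y
        simp only [mem_sdiff, mem_union]
        constructor
        · rintro ⟨h1, h2⟩
          exact ⟨h1, fun h => h2 (Or.inl h)⟩
        · rintro ⟨h1, h2⟩
          refine ⟨h1, ?_⟩
          rintro (h | h)
          · exact h2 h
          · exact (mem_sdiff.1 (hR h)).2 h1
      have e2 : (S ∪ R) \ a = R := by
        ext y
        simp only [mem_sdiff, mem_union]
        constructor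
        · rintro ⟨h1 | h1, h2⟩
          · exact absurd (hS h1) h2
          · exact h1
        · intro h
          exact ⟨Or.inr h, (mem_sdiff.1 (hR h)).2⟩
      unfold Usable
      rw [e1, e2]
      by_cases h1 : 16 ^ j ≤ (a \ S).card
      · rw [if_pos h1]
        split_ifs <;> nlinarith
      · rw [if_neg h1]
        by_cases h2 : Tree σ k (j + 1) (Y \ a) (fun U => F (a ∪ (R ∪ U)))
        · rw [if_pos ⟨not_le.1 h1, h2⟩, if_pos h2]; simp
        · rw [if_neg (fun h => h2 h.2), if_neg h2]; simp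
    rw [Ex_add, Ex_const, Ex_mul] at h1
    nlinarith
  refine le_trans (Ex_mono hp.le hp1 a hin) ?_
  rw [Ex_add, Ex_mul]
  have h1 := Ex_miss hp hp1 hσ a (16 ^ j) ((1 / 2) ^ 64) hσp (by positivity) (by norm_num)
  have h2 := Ex_miss hp hp1 hσ a 0 ((1 / 2) ^ 64) hσp (by positivity) (by norm_num)
  rw [e64'] at h1
  rw [pow_zero, mul_one] at h2
  have h3 : x ^ 64 = x ^ 16 * x ^ 48 := by ring
  have h4 : 0 ≤ x ^ 48 := by positivity
  have h5 : (2 : ℝ) ^ a.card * x ^ 64 ≤ x ^ 48 := by rw [h3]; nlinarith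
  have h6 : 0 ≤ x ^ 64 := by positivity
  nlinarith

open Classical in
theorem reduce (σ p : ℝ) (hp : 0 < p) (hp1 : p ≤ 1) (hσ : 0 ≤ σ)
    (hσp : σ ≤ (1 / 2) ^ 64 * p) : ∀ (k j : ℕ) (Y : Finset X) (F : Finset X → Prop),
    (∀ U V, U ⊆ V → F U → F V) → Tree σ k (j + 1) Y F →
    Ex p Y (fun W => if Tree σ k j Y (fun U => F (W ∪ U)) then 0 else 1)
      ≤ (1 / 2) ^ (4 * 16 ^ j) := by
  intro k
  induction k with
  | zero =>
    intro j Y F hF h
    have : Ex p Y (fun W => if Tree σ 0 j Y (fun U => F (W ∪ U)) then 0 else 1) = 0 := by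
      refine Eq.trans (Ex_congr p Y fun W _ => ?_) (Ex_const p Y 0)
      exact if_pos (hF _ _ (empty_subset _) h)
    rw [this]
    positivity
  | succ k ih =>
    rintro j Y F hF ⟨ν, h0, h1, h2, h3⟩
    set x : ℝ := (1 / 2) ^ (16 ^ j) with hx
    have hx0 : 0 < x := by positivity
    have hη : 0 < x ^ 24 := by positivity
    have hsum : ∑ A, ν A ≤ 1 := by simpa using h2 ∅
    have hb : Ex p Y (fun w => ∑ a, ν a * (if Ok σ k j Y F ν a w then 0 else 1))
        ≤ 3 * x ^ 24 := by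
      have s1 : Ex p Y (fun w => ∑ a, ν a * (if Ok σ k j Y F ν a w then 0 else 1))
          ≤ Ex p Y (fun w => (∑ a, ν a * (if lik p ν (w ∪ a) ≤ x ^ 24 then 1 else 0))
            + (x ^ 24)⁻¹ * ∑ a', ν a' * (σ ^ (a' \ w).card / p ^ a'.card *
              (if Usable σ k j Y F a' w then 0 else 1))) := by
        refine Ex_mono hp.le hp1 Y fun w _ => ?_
        refine le_trans (Finset.sum_le_sum fun a _ => mul_le_mul_of_nonneg_left
          (fail_le σ p (x ^ 24) hp hη k j Y F ν h0 a w) (h0 a)) ?_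
        simp only [mul_add, Finset.sum_add_distrib]
        refine add_le_add le_rfl ?_
        have e : ∀ a, ν a * ((x ^ 24)⁻¹ * ∑ a', if a' \ w ⊆ a then
            ν a' / p ^ a'.card * (if Usable σ k j Y F a' w then 0 else 1) else 0)
            = (x ^ 24)⁻¹ * ∑ a', ν a' / p ^ a'.card * (if Usable σ k j Y F a' w then 0 else 1)
              * (if a' \ w ⊆ a then ν a else 0) := by
          intro a
          rw [mul_left_comm, Finset.mul_sum]
          congr 1
          refine Finset.sum_congr rfl fun a' _ => ?_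
          split_ifs <;> ring
        simp only [e]
        rw [← Finset.mul_sum, Finset.sum_comm]
        refine mul_le_mul_of_nonneg_left (Finset.sum_le_sum fun a' _ => ?_) (by positivity)
        rw [← Finset.mul_sum]
        have h4 := h2 (a' \ w)
        have h5 : 0 ≤ ν a' / p ^ a'.card * (if Usable σ k j Y F a' w then 0 else 1) := by
          have := h0 a'
          split_ifs <;> positivity
        refine le_trans (mul_le_mul_of_nonneg_left h4 h5) (le_of_eq ?_)
        ring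
      rw [Ex_add, Ex_mul, Ex_sum p Y univ (fun a' w => ν a' * (σ ^ (a' \ w).card / p ^ a'.card *
              (if Usable σ k j Y F a' w then 0 else 1)))] at s1
      have s2 := term_one p (x ^ 24) hp hp1 hη Y ν (fun A hA => (h3 A hA).1)
      have s3 : ∑ a', Ex p Y (fun w => ν a' * (σ ^ (a' \ w).card / p ^ a'.card *
          (if Usable σ k j Y F a' w then 0 else 1))) ≤ ∑ a', ν a' * (2 * x ^ 48) := by
        refine Finset.sum_le_sum fun a' _ => ?_
        rw [Ex_mul]
        by_cases h : ν a' = 0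
        · simp [h]
        · obtain ⟨h4, h5, h6⟩ := h3 a' h
          refine mul_le_mul_of_nonneg_left ?_ (h0 a')
          refine term_two σ p x hp hp1 hσ hσp k j hx Y F a' h4 h5 ?_
          exact ih (j + 1) (Y \ a') (fun U => F (a' ∪ U))
            (fun U V hUV hU => hF _ _ (union_subset_union (Subset.refl _) hUV) hU) h6
      rw [← Finset.sum_mul] at s3
      have s4 : (∑ a', ν a') * (2 * x ^ 48) ≤ 2 * x ^ 48 := by
        have : 0 ≤ 2 * x ^ 48 := by positivity
        nlinarith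
      have s5 : (x ^ 24)⁻¹ * (2 * x ^ 48) = 2 * x ^ 24 := by field_simp
      have s6 := mul_le_mul_of_nonneg_left (s3.trans s4) (inv_nonneg.2 hη.le)
      linarith
    have hm : Ex p Y (fun W => if Tree σ (k + 1) j Y (fun U => F (W ∪ U)) then 0 else 1)
        ≤ Ex p Y (fun w => 2 ^ (j + 2) *
          ∑ a, ν a * (if Ok σ k j Y F ν a w then 0 else 1)) := by
      refine Ex_mono hp.le hp1 Y fun w _ => ?_
      have hnn : 0 ≤ ∑ a, ν a * (if Ok σ k j Y F ν a w then (0 : ℝ) else 1) :=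
        Finset.sum_nonneg fun a _ => by
          have := h0 a
          split_ifs <;> positivity
      split_ifs with h
      · positivity
      · have h4 : ¬ ∑ a, ν a * (if Ok σ k j Y F ν a w then (0 : ℝ) else 1) ≤ (1 / 2) ^ (j + 2) :=
          fun h4 => h (tree_of_small σ k j Y F ν h0 h1 h2 (fun A hA => (h3 A hA).1) w h4)
        push Not at h4
        have h5 : (2 : ℝ) ^ (j + 2) * (1 / 2) ^ (j + 2) = 1 := by
          rw [← mul_pow]; norm_num
        have h6 : (0 : ℝ) < 2 ^ (j + 2) := by positivity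
        nlinarith
    rw [Ex_mul] at hm
    have hj : j + 1 ≤ 16 ^ j := Nat.lt_pow_self (by norm_num)
    have h7 : (2 : ℝ) ^ (j + 2) * x ≤ 2 := by
      have h8 : x ≤ (1 / 2) ^ (j + 1) := pow_le_pow_of_le_one (by norm_num) (by norm_num) hj
      have h9 : (2 : ℝ) ^ (j + 2) * (1 / 2) ^ (j + 1) = 2 := by
        rw [pow_succ (2 : ℝ) (j + 1), mul_comm _ (2 : ℝ), mul_assoc, ← mul_pow]; norm_num
      have h10 : (0 : ℝ) < 2 ^ (j + 2) := by positivity
      nlinarith
    have h11 : x ≤ 1 / 2 := by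
      have : x ≤ (1 / 2) ^ 1 := pow_le_pow_of_le_one (by norm_num) (by norm_num) (by omega)
      simpa using this
    have e4 : ((1 : ℝ) / 2) ^ (4 * 16 ^ j) = x ^ 4 := by
      rw [hx, ← pow_mul]; congr 1; ring
    rw [e4]
    have h12 : x ^ 19 ≤ (1 / 2) ^ 19 := pow_le_pow_left₀ hx0.le h11 19
    have h13 : (2 : ℝ) ^ (j + 2) * (3 * x ^ 24) = 3 * (2 ^ (j + 2) * x) * x ^ 19 * x ^ 4 := by
      ring
    have h14 : 3 * (2 ^ (j + 2) * x) * x ^ 19 ≤ 1 := by
      have : 0 ≤ x ^ 19 := by positivity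
      have : (0 : ℝ) ≤ 2 ^ (j + 2) * x := by positivity
      nlinarith
    have h15 : 0 ≤ x ^ 4 := by positivity
    have h16 : (0 : ℝ) < 2 ^ (j + 2) := by positivity
    nlinarith

open Classical in
theorem cover (σ p : ℝ) (hp : 0 < p) (hp1 : p ≤ 1) (hσ : 0 ≤ σ)
    (hσp : σ ≤ (1 / 2) ^ 64 * p) (Y : Finset X) : ∀ (t k : ℕ) (F : Finset X → Prop),
    (∀ U V, U ⊆ V → F U → F V) → Tree σ k 1 Y F →
    Ex (1 - (1 - p) ^ t) Y (fun W => if F W then 0 else 1) ≤ 4 ^ k * (1 / 2) ^ t := by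
  intro t
  induction t with
  | zero =>
    intro k F _ _
    rw [pow_zero, sub_self, Ex_zero]
    have : (1 : ℝ) ≤ 4 ^ k := one_le_pow₀ (by norm_num)
    split_ifs <;> linarith
  | succ t ih =>
    intro k F hF h
    have e : 1 - (1 - p) ^ (t + 1) = p + (1 - (1 - p) ^ t) - p * (1 - (1 - p) ^ t) := by ring
    rw [e, ← Ex_two]
    have hFW : ∀ W U V, U ⊆ V → F (W ∪ U) → F (W ∪ V) := fun W U V hUV hU =>
      hF _ _ (union_subset_union (Subset.refl _) hUV) hU
    cases k with
    | zero =>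
      have : Ex p Y (fun W => Ex (1 - (1 - p) ^ t) Y (fun V => if F (W ∪ V) then 0 else 1))
          = 0 := by
        refine Eq.trans (Ex_congr p Y fun W _ => ?_) (Ex_const p Y 0)
        refine Eq.trans (Ex_congr _ Y fun V _ => ?_) (Ex_const _ Y 0)
        exact if_pos (hF _ _ (empty_subset _) h)
      rw [this]
      positivity
    | succ k =>
      have h1 : Ex p Y (fun W => Ex (1 - (1 - p) ^ t) Y (fun V => if F (W ∪ V) then 0 else 1))
          ≤ Ex p Y (fun W => 4 ^ k * (1 / 2) ^ t + (4 ^ (k + 1) * (1 / 2) ^ t) *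
            (if Tree σ (k + 1) 0 Y (fun U => F (W ∪ U)) then 0 else 1)) := by
        refine Ex_mono hp.le hp1 Y fun W _ => ?_
        split_ifs with h2
        · have := ih k (fun U => F (W ∪ U)) (hFW W) (Tree.drop σ k Y _ h2)
          simpa using this
        · have := ih (k + 1) (fun U => F (W ∪ U)) (hFW W)
            (Tree.mono σ _ _ _ _ _ _ (Subset.refl Y)
              (fun U hU => hF _ _ subset_union_right hU) h)
          have h3 : (0 : ℝ) ≤ 4 ^ k * (1 / 2) ^ t := by positivity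
          linarith
      rw [Ex_add, Ex_const, Ex_mul] at h1
      have h2 := reduce σ p hp hp1 hσ hσp (k + 1) 0 Y F hF h
      have h3 : (0 : ℝ) ≤ 4 ^ k * (1 / 2) ^ t := by positivity
      have h4 : (4 : ℝ) ^ (k + 1) * (1 / 2) ^ t = 4 * (4 ^ k * (1 / 2) ^ t) := by ring
      have h5 : (4 : ℝ) ^ (k + 1) * (1 / 2) ^ (t + 1) = 2 * (4 ^ k * (1 / 2) ^ t) := by ring
      rw [h5]
      rw [h4] at h1
      norm_num at h2
      nlinarith

end Vale.Agent.P064
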